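import Mathlib
import Vale.Agent.Helper24.P227Defs
import Vale.Agent.Helper24.P227Lemmas
import Vale.Agent.Helper24.P227Prod
import Vale.Agent.Helper24.P227Body

/-!
# P227: the logarithmic Brunn-Minkowski inequality for product bodies and block dilations

For arbitrary origin-symmetric convex bodies `K_1 ⊂ U`, `K_2 ⊂ V` and scalars `c_1, c_2 > 0`,
the pair `K = K_1 × K_2`, `L = (c_1 K_1) × (c_2 K_2)` in the orthogonal direct sum of `U` and `V`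
satisfies `|(1-t) K +_0 t L| ≥ |K|^(1-t) |L|^t` for every `t ∈ [0, 1]`.
-/

namespace Vale.Agent.Results.P227.BlockDilates

open Vale.Agent.Helper24.P227

theorem result (U V : Type*) [NormedAddCommGroup U] [InnerProductSpace ℝ U] [MeasurableSpace U]
    [BorelSpace U] [FiniteDimensional ℝ U] [NormedAddCommGroup V] [InnerProductSpace ℝ V]
    [MeasurableSpace V] [BorelSpace V] [FiniteDimensional ℝ V]
    (K₁ : Set U) (K₂ : Set V) (hK₁ : IsSymmBody K₁) (hK₂ : IsSymmBody K₂)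
    (c₁ c₂ t : ℝ) (hc₁ : 0 < c₁) (hc₂ : 0 < c₂) (ht0 : 0 ≤ t) (ht1 : t ≤ 1) :
    IsSymmBody (prodBody K₁ K₂) ∧
      IsSymmBody (prodBody ((fun x : U => c₁ • x) '' K₁) ((fun y : V => c₂ • y) '' K₂)) ∧
      LogBM t (prodBody K₁ K₂)
        (prodBody ((fun x : U => c₁ • x) '' K₁) ((fun y : V => c₂ • y) '' K₂)) := by
  have hL₁ := isSymmBody_dilate K₁ hK₁ c₁ hc₁
  have hL₂ := isSymmBody_dilate K₂ hK₂ c₂ hc₂
  exact ⟨isSymmBody_prod K₁ K₂ hK₁ hK₂, isSymmBody_prod _ _ hL₁ hL₂,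
    prod_logBM t ht0 ht1 K₁ _ K₂ _ hK₁.1 hL₁.1 hK₂.1 hL₂.1
      (symm_zero_mem K₁ hK₁) (symm_zero_mem _ hL₁) (symm_zero_mem K₂ hK₂) (symm_zero_mem _ hL₂)
      (logBM_dilate K₁ hK₁ c₁ t hc₁ ht0) (logBM_dilate K₂ hK₂ c₂ t hc₂ ht0)⟩

end Vale.Agent.Results.P227.BlockDilates
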