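import Mathlib
import Vale.Agent.Results.P227.BlockDilates

/-!
# P227: the logarithmic Brunn-Minkowski inequality for block dilations, in plain form

For origin-symmetric convex bodies `K₁ ⊂ U`, `K₂ ⊂ V` in finite-dimensional real inner product
spaces and `c₁, c₂ > 0`, the bodies `K = K₁ × K₂` and `L = (c₁ K₁) × (c₂ K₂)` in the orthogonal
direct sum of `U` and `V` satisfy `|(1-t) K +_0 t L| ≥ |K|^(1-t) |L|^t` for every `t ∈ [0, 1]`.

The statement uses no definitions of this project: the product bodies, the support function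
`h A u = sup_{x ∈ A} ⟨x, u⟩` and the logarithmic sum
`{x | ∀ u, ‖u‖ = 1 → ⟨x, u⟩ ≤ h K u ^ (1 - t) * h L u ^ t}` are written out.
-/

namespace Vale.Agent.Results.P227.BlockDilatesPlain

open MeasureTheory

theorem result (U V : Type*) [NormedAddCommGroup U] [InnerProductSpace ℝ U] [MeasurableSpace U]
    [BorelSpace U] [FiniteDimensional ℝ U] [NormedAddCommGroup V] [InnerProductSpace ℝ V]
    [MeasurableSpace V] [BorelSpace V] [FiniteDimensional ℝ V]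
    (K₁ : Set U) (K₂ : Set V)
    (hK₁ : IsCompact K₁ ∧ Convex ℝ K₁ ∧ (interior K₁).Nonempty ∧ ∀ x ∈ K₁, -x ∈ K₁)
    (hK₂ : IsCompact K₂ ∧ Convex ℝ K₂ ∧ (interior K₂).Nonempty ∧ ∀ y ∈ K₂, -y ∈ K₂)
    (c₁ c₂ t : ℝ) (hc₁ : 0 < c₁) (hc₂ : 0 < c₂) (ht0 : 0 ≤ t) (ht1 : t ≤ 1) :
    let K : Set (WithLp 2 (U × V)) :=
      {z | (WithLp.ofLp z).1 ∈ K₁ ∧ (WithLp.ofLp z).2 ∈ K₂}
    let L : Set (WithLp 2 (U × V)) :=
      {z | (WithLp.ofLp z).1 ∈ (fun x : U => c₁ • x) '' K₁ ∧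
        (WithLp.ofLp z).2 ∈ (fun y : V => c₂ • y) '' K₂}
    let h : Set (WithLp 2 (U × V)) → WithLp 2 (U × V) → ℝ :=
      fun A u => sSup ((fun x => inner ℝ x u) '' A)
    (IsCompact K ∧ Convex ℝ K ∧ (interior K).Nonempty ∧ ∀ z ∈ K, -z ∈ K) ∧
    (IsCompact L ∧ Convex ℝ L ∧ (interior L).Nonempty ∧ ∀ z ∈ L, -z ∈ L) ∧
    volume K ^ (1 - t) * volume L ^ t ≤
      volume {x : WithLp 2 (U × V) | ∀ u : WithLp 2 (U × V), ‖u‖ = 1 →
        inner ℝ x u ≤ h K u ^ (1 - t) * h L u ^ t} := by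
  intro K L h
  exact Vale.Agent.Results.P227.BlockDilates.result U V K₁ K₂ hK₁ hK₂ c₁ c₂ t hc₁ hc₂ ht0 ht1

end Vale.Agent.Results.P227.BlockDilatesPlain
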