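import Mathlib
import Vale.Agent.Helper24.P227Defs
import Vale.Agent.Helper24.P227Lemmas
import Vale.Agent.Helper24.P227Prod
import Vale.Agent.Helper24.P227Body

/-!
# P227: the logarithmic Brunn-Minkowski inequality is stable under orthogonal products

If the inequality `|(1-t) K_i +_0 t L_i| ≥ |K_i|^(1-t) |L_i|^t` holds for two pairs of
origin-symmetric convex bodies `K_1, L_1 ⊂ U` and `K_2, L_2 ⊂ V`, then it holds for the pair of
product bodies `K_1 × K_2`, `L_1 × L_2` in the orthogonal direct sum of `U` and `V`.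
-/

namespace Vale.Agent.Results.P227.ProductPairs

open Vale.Agent.Helper24.P227

theorem result (U V : Type*) [NormedAddCommGroup U] [InnerProductSpace ℝ U] [MeasurableSpace U]
    [BorelSpace U] [FiniteDimensional ℝ U] [NormedAddCommGroup V] [InnerProductSpace ℝ V]
    [MeasurableSpace V] [BorelSpace V] [FiniteDimensional ℝ V]
    (K₁ L₁ : Set U) (K₂ L₂ : Set V)
    (hK₁ : IsSymmBody K₁) (hL₁ : IsSymmBody L₁) (hK₂ : IsSymmBody K₂) (hL₂ : IsSymmBody L₂)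
    (t : ℝ) (ht0 : 0 ≤ t) (ht1 : t ≤ 1)
    (h₁ : LogBM t K₁ L₁) (h₂ : LogBM t K₂ L₂) :
    IsSymmBody (prodBody K₁ K₂) ∧ IsSymmBody (prodBody L₁ L₂) ∧
      LogBM t (prodBody K₁ K₂) (prodBody L₁ L₂) :=
  ⟨isSymmBody_prod K₁ K₂ hK₁ hK₂, isSymmBody_prod L₁ L₂ hL₁ hL₂,
    prod_logBM t ht0 ht1 K₁ L₁ K₂ L₂ hK₁.1 hL₁.1 hK₂.1 hL₂.1
      (symm_zero_mem K₁ hK₁) (symm_zero_mem L₁ hL₁) (symm_zero_mem K₂ hK₂) (symm_zero_mem L₂ hL₂)
      h₁ h₂⟩

end Vale.Agent.Results.P227.ProductPairs
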